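import Vale.Agent.P114.Final

/-! The entropy-rate dimension formula for every self-similar measure on the line. -/

namespace Vale.Agent.Results.P114.DimFormula

open MeasureTheory Vale.Agent.P114

theorem result {Λ : Type} [Fintype Λ] [Nonempty Λ] (r t p : Λ → ℝ)
    (hr : ∀ i, 0 < |r i| ∧ |r i| < 1) (hp : ∀ i, 0 < p i) (hp1 : ∑ i, p i = 1)
    (μ : Measure ℝ) [IsProbabilityMeasure μ]
    (hμ : μ = ∑ i, ENNReal.ofReal (p i) • μ.map fun x => r i * x + t i) :
    measureDim μ = ENNReal.ofReal (min 1 (entropyRate r t p / lyapunov r p)) :=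
  dim_formula ⟨⟨hp, hp1⟩, fun i => abs_pos.1 (hr i).1, fun i => (hr i).2, inferInstance, hμ⟩

end Vale.Agent.Results.P114.DimFormula
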